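import Vale.Agent.P372B.Ineq

/-! # P372: the inequality for n letters and product functions (helper37) -/

namespace Vale.Agent.P372B

open Finset

theorem sum_pair {n : ℕ} (f : (Fin n → Fin 3 × Fin 3) → ℝ) :
    ∑ ω, f ω = ∑ x : Fin n → Fin 3, ∑ y : Fin n → Fin 3, f (fun i => (x i, y i)) := by
  rw [← Fintype.sum_prod_type' (f := fun (x y : Fin n → Fin 3) => f (fun i => (x i, y i)))]
  exact Fintype.sum_equiv (Equiv.arrowProdEquivProdArrow (Fin n) (fun _ => Fin 3) (fun _ => Fin 3))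
    _ _ (fun _ => rfl)

theorem Pn_nonneg {n : ℕ} (x y : Fin n → Fin 3) (z : Fin n → Option (Fin 3 × Fin 3)) :
    0 ≤ Pn x y z := Finset.prod_nonneg fun _ _ => P_nonneg _ _ _

/-- `n` letters of `X, Y, J` -/
noncomputable def Gn {n : ℕ} (x y j : Fin n → Fin 3) : ℝ := ∏ i, G (x i) (y i) (j i)

theorem Gn_nonneg {n : ℕ} (x y j : Fin n → Fin 3) : 0 ≤ Gn x y j :=
  Finset.prod_nonneg fun _ _ => G_nonneg _ _ _

theorem sum_Pn_eq {n : ℕ} (x y : Fin n → Fin 3) : ∑ z, Pn x y z = ∑ j, Gn x y j := by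
  unfold Pn Gn
  have h1 := Finset.prod_univ_sum (fun _ : Fin n => (Finset.univ : Finset (Option (Fin 3 × Fin 3))))
    (fun i z => P (x i) (y i) z)
  have h2 := Finset.prod_univ_sum (fun _ : Fin n => (Finset.univ : Finset (Fin 3)))
    (fun i j => G (x i) (y i) j)
  rw [Fintype.piFinset_univ] at h1 h2
  rw [← h1, ← h2]
  exact Finset.prod_congr rfl fun i _ => sum_P_eq _ _

theorem sum_letter : ∑ x, ∑ y, ∑ z, P x y z = 1 := by
  simp only [Fintype.sum_option, Fintype.sum_prod_type, Fin.sum_univ_three]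
  simp [P]
  norm_num

theorem sum_Pn_one (n : ℕ) : ∑ x : Fin n → Fin 3, ∑ y, ∑ z, Pn x y z = 1 := by
  rw [← sum_pair (fun ω => ∑ z, Pn (fun i => (ω i).1) (fun i => (ω i).2) z)]
  have h1 : ∀ ω : Fin n → Fin 3 × Fin 3, ∑ z, Pn (fun i => (ω i).1) (fun i => (ω i).2) z =
      ∏ i, ∑ z, P (ω i).1 (ω i).2 z := by
    intro ω
    have h1 := Finset.prod_univ_sum
      (fun _ : Fin n => (Finset.univ : Finset (Option (Fin 3 × Fin 3))))
      (fun i z => P (ω i).1 (ω i).2 z)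
    rw [Fintype.piFinset_univ] at h1
    exact h1.symm
  simp only [h1]
  have h2 := Finset.prod_univ_sum (fun _ : Fin n => (Finset.univ : Finset (Fin 3 × Fin 3)))
    (fun _ w => ∑ z, P w.1 w.2 z)
  rw [Fintype.piFinset_univ] at h2
  rw [← h2]
  refine Finset.prod_eq_one fun i _ => ?_
  rw [Fintype.sum_prod_type]
  exact sum_letter

theorem Gn_fac {n : ℕ} (j : Fin n → Fin 3) (α β : (Fin n → Fin 3) → ℝ) :
    ∑ x : Fin n → Fin 3, ∑ y : Fin n → Fin 3, Gn x y j * (α x * β y) =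
      (2 / 27) ^ n * ((∑ x : Fin n → Fin 3, (∏ i, ja (j i) (x i)) * α x) *
        (∑ y : Fin n → Fin 3, (∏ i, jb (j i) (y i)) * β y)) := by
  rw [Finset.sum_mul_sum, Finset.mul_sum]
  refine Finset.sum_congr rfl fun x _ => ?_
  rw [Finset.mul_sum]
  refine Finset.sum_congr rfl fun y _ => ?_
  unfold Gn G
  rw [Finset.prod_mul_distrib, Finset.prod_mul_distrib, Finset.prod_const, Finset.card_univ,
    Fintype.card_fin]
  ring

theorem core {n : ℕ} (α0 α1 β0 β1 : (Fin n → Fin 3) → ℝ) (ha0 : ∀ x, 0 ≤ α0 x)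
    (ha1 : ∀ x, 0 ≤ α1 x) (hb0 : ∀ x, 0 ≤ β0 x) (hb1 : ∀ x, 0 ≤ β1 x) :
    ∑ z, √((∑ x, ∑ y, Pn x y z * (α0 x * β0 y)) * (∑ x, ∑ y, Pn x y z * (α1 x * β1 y))) ≤
      √((∑ z, ∑ x, ∑ y, Pn x y z * (α0 x * β1 y)) * (∑ z, ∑ x, ∑ y, Pn x y z * (α1 x * β0 y))) := by
  have h1 := tens (fun (w : Fin 3 × Fin 3) z => P w.1 w.2 z) (fun w j => G w.1 w.2 j)
    (fun _ _ => P_nonneg _ _ _) (fun _ _ => G_nonneg _ _ _) letter n
    (fun ω => α0 (fun i => (ω i).1) * β0 (fun i => (ω i).2))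
    (fun ω => α1 (fun i => (ω i).1) * β1 (fun i => (ω i).2))
    (fun _ => mul_nonneg (ha0 _) (hb0 _)) (fun _ => mul_nonneg (ha1 _) (hb1 _))
  simp only [sum_pair] at h1
  refine h1.trans ?_
  change ∑ j : Fin n → Fin 3, √((∑ x, ∑ y, Gn x y j * (α0 x * β0 y)) *
    (∑ x, ∑ y, Gn x y j * (α1 x * β1 y))) ≤ _
  have h2 : ∀ j : Fin n → Fin 3, √((∑ x, ∑ y, Gn x y j * (α0 x * β0 y)) *
      (∑ x, ∑ y, Gn x y j * (α1 x * β1 y))) =
      √(∑ x, ∑ y, Gn x y j * (α0 x * β1 y)) * √(∑ x, ∑ y, Gn x y j * (α1 x * β0 y)) := by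
    intro j
    rw [← Real.sqrt_mul (Finset.sum_nonneg fun x _ => Finset.sum_nonneg fun y _ =>
      mul_nonneg (Gn_nonneg _ _ _) (mul_nonneg (ha0 _) (hb1 _)))]
    rw [Gn_fac, Gn_fac, Gn_fac, Gn_fac]
    congr 1
    ring
  simp only [h2]
  refine (Real.sum_sqrt_mul_sqrt_le _ (fun j => Finset.sum_nonneg fun x _ =>
    Finset.sum_nonneg fun y _ => mul_nonneg (Gn_nonneg _ _ _) (mul_nonneg (ha0 _) (hb1 _)))
    (fun j => Finset.sum_nonneg fun x _ =>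
    Finset.sum_nonneg fun y _ => mul_nonneg (Gn_nonneg _ _ _) (mul_nonneg (ha1 _) (hb0 _)))).trans ?_
  have h3 : ∀ α β : (Fin n → Fin 3) → ℝ, ∑ j, ∑ x, ∑ y, Gn x y j * (α x * β y) =
      ∑ z, ∑ x, ∑ y, Pn x y z * (α x * β y) := by
    intro α β
    rw [Finset.sum_comm]
    conv_rhs => rw [Finset.sum_comm]
    refine Finset.sum_congr rfl fun x _ => ?_
    rw [Finset.sum_comm]
    conv_rhs => rw [Finset.sum_comm]
    refine Finset.sum_congr rfl fun y _ => ?_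
    rw [← Finset.sum_mul, ← Finset.sum_mul, sum_Pn_eq]
  rw [h3, h3, ← Real.sqrt_mul]
  exact Finset.sum_nonneg fun z _ => Finset.sum_nonneg fun x _ => Finset.sum_nonneg fun y _ =>
    mul_nonneg (Pn_nonneg _ _ _) (mul_nonneg (ha0 _) (hb1 _))

end Vale.Agent.P372B
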