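import Mathlib

/-! # P372: a classical bipartite distribution with bound information, definitions (helper37, after
helper96) -/

namespace Vale.Agent.P372B

open Finset

/-- The distribution of one triple `(X, Y, Z)`: Alice holds `x`, Bob holds `y` (letters of `Fin 3`), Eve
holds `z`, which is `none` (erasure) or `some (x, y)` (she knows both letters).
`P(x,x,none) = P(x,x,some (x,x)) = 2/27`, `P(x,x+1,some (x,x+1)) = 4/27`,
`P(x+1,x,some (x+1,x)) = 1/27`. -/
noncomputable def P (x y : Fin 3) : Option (Fin 3 × Fin 3) → ℝ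
  | none => if x = y then 2 / 27 else 0
  | some w => if w = (x, y) then (if x = y then 2 / 27 else if y = x + 1 then 4 / 27 else 1 / 27)
      else 0

/-- `n` independent triples -/
noncomputable def Pn {n : ℕ} (x y : Fin n → Fin 3) (z : Fin n → Option (Fin 3 × Fin 3)) : ℝ :=
  ∏ i, P (x i) (y i) (z i)

/-- A protocol for `n` copies and a key of `l` bits: private randomness `Fin p`, `Fin q` with
distributions `u`, `v`; `r` rounds; in every round Alice and Bob publish one bit each, which depends on
their own data, their own randomness and the public transcript so far (the latest round first); at the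
end each of them computes a key of `l` bits. -/
structure Protocol (n l : ℕ) where
  p : ℕ
  q : ℕ
  u : Fin p → ℝ
  v : Fin q → ℝ
  u_nonneg : ∀ i, 0 ≤ u i
  v_nonneg : ∀ i, 0 ≤ v i
  u_sum : ∑ i, u i = 1
  v_sum : ∑ i, v i = 1
  r : ℕ
  msgA : (Fin n → Fin 3) → Fin p → List (Bool × Bool) → Bool
  msgB : (Fin n → Fin 3) → Fin q → List (Bool × Bool) → Bool
  keyA : (Fin n → Fin 3) → Fin p → List (Bool × Bool) → Fin l → Bool
  keyB : (Fin n → Fin 3) → Fin q → List (Bool × Bool) → Fin l → Bool

namespace Protocol

variable {n l : ℕ} (π : Protocol n l)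

/-- the public transcript of the first `k` rounds, latest round first -/
def tr (x : Fin n → Fin 3) (a : Fin π.p) (y : Fin n → Fin 3) (b : Fin π.q) :
    ℕ → List (Bool × Bool)
  | 0 => []
  | k + 1 => (π.msgA x a (tr x a y b k), π.msgB y b (tr x a y b k)) :: tr x a y b k

/-- the joint probability of the keys `s` (Alice) and `s'` (Bob), Eve's data `z` and the transcript `f` -/
noncomputable def joint (s s' : Fin l → Bool) (z : Fin n → Option (Fin 3 × Fin 3))
    (f : Fin π.r → Bool × Bool) : ℝ :=
  ∑ x : Fin n → Fin 3, ∑ y : Fin n → Fin 3, ∑ a, ∑ b,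
    if π.tr x a y b π.r = List.ofFn f ∧ π.keyA x a (List.ofFn f) = s ∧ π.keyB y b (List.ofFn f) = s'
    then Pn x y z * π.u a * π.v b else 0

/-- the error of the protocol relative to an ideal key and Eve's distribution `σ` -/
noncomputable def err (σ : (Fin n → Option (Fin 3 × Fin 3)) → (Fin π.r → Bool × Bool) → ℝ) : ℝ :=
  ∑ s : Fin l → Bool, ∑ s' : Fin l → Bool, ∑ z : Fin n → Option (Fin 3 × Fin 3),
    ∑ f : Fin π.r → Bool × Bool,
      |π.joint s s' z f - if s = s' then (1 / 2) ^ l * σ z f else 0|

end Protocol

/-! ## Intrinsic information -/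

section Intrinsic

variable {m : ℕ} (W : Option (Fin 3 × Fin 3) → Fin m → ℝ)

/-- the joint distribution of `X, Y` and the output `w` of the channel `W` applied to `Z` -/
noncomputable def pXYW (x y : Fin 3) (w : Fin m) : ℝ := ∑ z, P x y z * W z w

noncomputable def pXW (x : Fin 3) (w : Fin m) : ℝ := ∑ y, pXYW W x y w

noncomputable def pYW (y : Fin 3) (w : Fin m) : ℝ := ∑ x, pXYW W x y w

noncomputable def pW (w : Fin m) : ℝ := ∑ x, ∑ y, pXYW W x y w

/-- the conditional mutual information `I(X;Y|W)` in nats -/
noncomputable def condInfo : ℝ :=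
  ∑ w, ∑ x, ∑ y, pXYW W x y w *
    Real.log (pXYW W x y w * pW W w / (pXW W x w * pYW W y w))

end Intrinsic

end Vale.Agent.P372B
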