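import Vale.Agent.P372B.Proto

/-! # P372: the error of every protocol is at least 1/2 (helper37) -/

namespace Vale.Agent.P372B

open Finset Classical

/-- keys with bit `b` at position `i0` -/
def Sb {l : ℕ} (i0 : Fin l) (b : Bool) : Set (Fin l → Bool) := {s | s i0 = b}

theorem mem_Sb {l : ℕ} (i0 : Fin l) (b : Bool) (s : Fin l → Bool) : s ∈ Sb i0 b ↔ s i0 = b :=
  Iff.rfl

theorem kappa_eq {l : ℕ} (i0 : Fin l) (c : ℝ) :
    (∑ s : Fin l → Bool, if s ∈ Sb i0 false then c else 0) =
      ∑ s : Fin l → Bool, if s ∈ Sb i0 true then c else 0 := by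
  have hinv : Function.Involutive (fun s : Fin l → Bool => Function.update s i0 (!(s i0))) := by
    intro s
    funext j
    by_cases hj : j = i0
    · subst hj; simp
    · simp [hj]
  refine Fintype.sum_equiv (Function.Involutive.toPerm _ hinv) _ _ fun s => ?_
  have h1 : (Function.Involutive.toPerm _ hinv) s = Function.update s i0 (!(s i0)) := rfl
  rw [h1]
  cases h : s i0 <;> simp [mem_Sb, h]

theorem sum_four {l : ℕ} (i0 : Fin l) (g : (Fin l → Bool) → (Fin l → Bool) → ℝ) :
    ∑ s, ∑ s', g s s' =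
      (∑ s, ∑ s', if s ∈ Sb i0 false ∧ s' ∈ Sb i0 false then g s s' else 0) +
      (∑ s, ∑ s', if s ∈ Sb i0 true ∧ s' ∈ Sb i0 true then g s s' else 0) +
      (∑ s, ∑ s', if s ∈ Sb i0 false ∧ s' ∈ Sb i0 true then g s s' else 0) +
      (∑ s, ∑ s', if s ∈ Sb i0 true ∧ s' ∈ Sb i0 false then g s s' else 0) := by
  simp only [← Finset.sum_add_distrib]
  refine Finset.sum_congr rfl fun s _ => Finset.sum_congr rfl fun s' _ => ?_
  cases h : s i0 <;> cases h' : s' i0 <;> simp [mem_Sb, h, h']

theorem ideal_sum {l : ℕ} (i0 : Fin l) (b b' : Bool) (c : ℝ) :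
    (∑ s : Fin l → Bool, ∑ s' : Fin l → Bool, if s ∈ Sb i0 b ∧ s' ∈ Sb i0 b' then
      (if s = s' then c else 0) else 0) =
      if b = b' then (∑ s : Fin l → Bool, if s ∈ Sb i0 b then c else 0) else 0 := by
  by_cases hb : b = b'
  · subst hb
    rw [if_pos rfl]
    refine Finset.sum_congr rfl fun s _ => ?_
    rw [Finset.sum_eq_single s]
    · by_cases hs : s ∈ Sb i0 b <;> simp [hs]
    · intro s' _ hs'
      by_cases h1 : s ∈ Sb i0 b ∧ s' ∈ Sb i0 b
      · rw [if_pos h1, if_neg (Ne.symm hs')]
      · rw [if_neg h1]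
    · intro h
      exact absurd (Finset.mem_univ _) h
  · rw [if_neg hb]
    refine Finset.sum_eq_zero fun s _ => Finset.sum_eq_zero fun s' _ => ?_
    by_cases h1 : s ∈ Sb i0 b ∧ s' ∈ Sb i0 b'
    · rw [if_pos h1, if_neg]
      intro h
      subst h
      exact hb (h1.1.symm.trans h1.2)
    · rw [if_neg h1]

theorem sqrt_ge_min (a b : ℝ) (ha : 0 ≤ a) (hb : 0 ≤ b) : (a + b - |a - b|) / 2 ≤ √(a * b) := by
  rcases le_total a b with h | h
  · rw [abs_of_nonpos (by linarith)]
    have : √(a * a) ≤ √(a * b) := Real.sqrt_le_sqrt (mul_le_mul_of_nonneg_left h ha)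
    rw [Real.sqrt_mul_self ha] at this
    linarith
  · rw [abs_of_nonneg (by linarith)]
    have : √(b * b) ≤ √(a * b) := Real.sqrt_le_sqrt (mul_le_mul_of_nonneg_right h hb)
    rw [Real.sqrt_mul_self hb] at this
    linarith

theorem sqrt_le_avg (a b : ℝ) (ha : 0 ≤ a) (hb : 0 ≤ b) : √(a * b) ≤ (a + b) / 2 := by
  refine Real.sqrt_le_iff.mpr ⟨by linarith, ?_⟩
  nlinarith [sq_nonneg (a - b)]

namespace Protocol

variable {n l : ℕ} (π : Protocol n l)

theorem err_ge (hl : 0 < l)
    (σ : (Fin n → Option (Fin 3 × Fin 3)) → (Fin π.r → Bool × Bool) → ℝ) : 1 / 2 ≤ π.err σ := by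
  let i0 : Fin l := ⟨0, hl⟩
  let q : Bool → Bool → (Fin n → Option (Fin 3 × Fin 3)) → (Fin π.r → Bool × Bool) → ℝ :=
    fun b b' z f => π.Q (Sb i0 b) (Sb i0 b') z f
  have hq0 : ∀ b b' z f, 0 ≤ q b b' z f := fun b b' z f => π.Q_nonneg _ _ _ _
  -- pointwise lower bound of the error
  have hpt : ∀ z f, |q false false z f - q true true z f| + q false true z f + q true false z f ≤
      ∑ s : Fin l → Bool, ∑ s' : Fin l → Bool,
        |π.joint s s' z f - if s = s' then (1 / 2) ^ l * σ z f else 0| := by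
    intro z f
    have hb : ∀ b b', |q b b' z f - (if b = b' then (∑ s : Fin l → Bool, if s ∈ Sb i0 b then
        (1 / 2) ^ l * σ z f else 0) else 0)| ≤
        ∑ s, ∑ s', if s ∈ Sb i0 b ∧ s' ∈ Sb i0 b' then
          |π.joint s s' z f - if s = s' then (1 / 2) ^ l * σ z f else 0| else 0 := by
      intro b b'
      have e1 : q b b' z f - (if b = b' then (∑ s : Fin l → Bool, if s ∈ Sb i0 b then
        (1 / 2) ^ l * σ z f else 0) else 0) =
        ∑ s, ∑ s', if s ∈ Sb i0 b ∧ s' ∈ Sb i0 b' then
          (π.joint s s' z f - if s = s' then (1 / 2) ^ l * σ z f else 0) else 0 := by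
        change π.Q _ _ z f - _ = _
        rw [π.Q_sum, ← ideal_sum i0 b b' ((1 / 2) ^ l * σ z f), ← Finset.sum_sub_distrib]
        refine Finset.sum_congr rfl fun s _ => ?_
        rw [← Finset.sum_sub_distrib]
        refine Finset.sum_congr rfl fun s' _ => ?_
        by_cases h1 : s ∈ Sb i0 b ∧ s' ∈ Sb i0 b'
        · rw [if_pos h1, if_pos h1, if_pos h1]
        · rw [if_neg h1, if_neg h1, if_neg h1, sub_zero]
      rw [e1]
      refine (Finset.abs_sum_le_sum_abs _ _).trans (Finset.sum_le_sum fun s _ => ?_)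
      refine (Finset.abs_sum_le_sum_abs _ _).trans (Finset.sum_le_sum fun s' _ => ?_)
      by_cases h1 : s ∈ Sb i0 b ∧ s' ∈ Sb i0 b'
      · rw [if_pos h1, if_pos h1]
      · rw [if_neg h1, if_neg h1, abs_zero]
    have h00 := hb false false
    have h11 := hb true true
    have h01 := hb false true
    have h10 := hb true false
    rw [if_pos rfl] at h00 h11
    rw [if_neg (by decide), sub_zero, abs_of_nonneg (hq0 _ _ _ _)] at h01 h10
    rw [sum_four i0]
    rw [kappa_eq i0] at h00
    have h2 : |q false false z f - q true true z f| ≤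
        |q false false z f - (∑ s : Fin l → Bool, if s ∈ Sb i0 true then
          (1 / 2) ^ l * σ z f else 0)| +
        |q true true z f - (∑ s : Fin l → Bool, if s ∈ Sb i0 true then
          (1 / 2) ^ l * σ z f else 0)| := by
      refine (abs_sub_le _ (∑ s : Fin l → Bool, if s ∈ Sb i0 true then
          (1 / 2) ^ l * σ z f else 0) _).trans ?_
      rw [abs_sub_comm (∑ s : Fin l → Bool, if s ∈ Sb i0 true then
          (1 / 2) ^ l * σ z f else 0)]
    linarith
  have hE : π.err σ = ∑ z, ∑ f, ∑ s : Fin l → Bool, ∑ s' : Fin l → Bool,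
        |π.joint s s' z f - if s = s' then (1 / 2) ^ l * σ z f else 0| := by
    unfold err
    calc _ = ∑ s : Fin l → Bool, ∑ z, ∑ s' : Fin l → Bool, ∑ f,
          |π.joint s s' z f - if s = s' then (1 / 2) ^ l * σ z f else 0| :=
            Finset.sum_congr rfl fun s _ => Finset.sum_comm
      _ = ∑ z, ∑ s : Fin l → Bool, ∑ s' : Fin l → Bool, ∑ f,
          |π.joint s s' z f - if s = s' then (1 / 2) ^ l * σ z f else 0| := Finset.sum_comm
      _ = ∑ z, ∑ s : Fin l → Bool, ∑ f, ∑ s' : Fin l → Bool,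
          |π.joint s s' z f - if s = s' then (1 / 2) ^ l * σ z f else 0| :=
            Finset.sum_congr rfl fun z _ => Finset.sum_congr rfl fun s _ => Finset.sum_comm
      _ = _ := Finset.sum_congr rfl fun z _ => Finset.sum_comm
  have hE2 : (∑ z, ∑ f, |q false false z f - q true true z f|) +
      (∑ z, ∑ f, (q false true z f + q true false z f)) ≤ π.err σ := by
    rw [hE, ← Finset.sum_add_distrib]
    refine Finset.sum_le_sum fun z _ => ?_
    rw [← Finset.sum_add_distrib]
    refine Finset.sum_le_sum fun f _ => ?_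
    have := hpt z f
    linarith
  have htot : (∑ z, ∑ f, (q false false z f + q true true z f)) +
      (∑ z, ∑ f, (q false true z f + q true false z f)) = 1 := by
    rw [← π.Q_total, ← Finset.sum_add_distrib]
    refine Finset.sum_congr rfl fun z _ => ?_
    rw [← Finset.sum_add_distrib]
    refine Finset.sum_congr rfl fun f _ => ?_
    have e1 : π.Q Set.univ Set.univ z f =
        ∑ s : Fin l → Bool, ∑ s' : Fin l → Bool, π.joint s s' z f := by
      rw [π.Q_sum]
      refine Finset.sum_congr rfl fun s _ => Finset.sum_congr rfl fun s' _ => ?_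
      rw [if_pos ⟨trivial, trivial⟩]
    rw [e1, sum_four i0]
    change π.Q _ _ z f + π.Q _ _ z f + (π.Q _ _ z f + π.Q _ _ z f) = _
    rw [π.Q_sum, π.Q_sum, π.Q_sum, π.Q_sum]
    ring
  have hcore : ∀ f, ∑ z, √(q false false z f * q true true z f) ≤
      ((∑ z, q false true z f) + ∑ z, q true false z f) / 2 := by
    intro f
    refine (core (π.wA (Sb i0 false) f) (π.wA (Sb i0 true) f) (π.wB (Sb i0 false) f)
      (π.wB (Sb i0 true) f) (π.wA_nonneg _ _) (π.wA_nonneg _ _) (π.wB_nonneg _ _)
      (π.wB_nonneg _ _)).trans (sqrt_le_avg _ _ ?_ ?_)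
    · exact Finset.sum_nonneg fun z _ => hq0 false true z f
    · exact Finset.sum_nonneg fun z _ => hq0 true false z f
  have hc2 : (∑ z, ∑ f, (q false false z f + q true true z f)) -
      (∑ z, ∑ f, |q false false z f - q true true z f|) ≤
      ∑ z, ∑ f, (q false true z f + q true false z f) := by
    have h1 : ∑ f, ∑ z, √(q false false z f * q true true z f) ≤
        ∑ f, ((∑ z, q false true z f) + ∑ z, q true false z f) / 2 :=
      Finset.sum_le_sum fun f _ => hcore f
    have h2 : ∑ f, ((∑ z, q false true z f) + ∑ z, q true false z f) / 2 =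
        (∑ z, ∑ f, (q false true z f + q true false z f)) / 2 := by
      rw [← Finset.sum_div, Finset.sum_comm]
      congr 1
      refine Finset.sum_congr rfl fun f _ => ?_
      rw [Finset.sum_add_distrib]
    have h3 : ((∑ z, ∑ f, (q false false z f + q true true z f)) -
      (∑ z, ∑ f, |q false false z f - q true true z f|)) / 2 ≤
        ∑ f, ∑ z, √(q false false z f * q true true z f) := by
      rw [Finset.sum_comm (s := (Finset.univ : Finset (Fin π.r → Bool × Bool))),
        ← Finset.sum_sub_distrib, Finset.sum_div]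
      refine Finset.sum_le_sum fun z _ => ?_
      rw [← Finset.sum_sub_distrib, Finset.sum_div]
      refine Finset.sum_le_sum fun f _ => ?_
      exact sqrt_ge_min _ _ (hq0 _ _ _ _) (hq0 _ _ _ _)
    linarith
  have h0 : 0 ≤ ∑ z, ∑ f, |q false false z f - q true true z f| :=
    Finset.sum_nonneg fun z _ => Finset.sum_nonneg fun f _ => abs_nonneg _
  linarith

end Protocol

end Vale.Agent.P372B
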