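import Vale.Agent.P372B.Def

/-! # P372: the letterwise inequality and its tensorization (helper37) -/

namespace Vale.Agent.P372B

open Finset

/-- reverse Hlawka inequality from the quadratic identity -/
theorem hlawka (N1 N2 N3 N12 N23 N13 N : ℝ) (h1 : 0 ≤ N1) (h2 : 0 ≤ N2) (h3 : 0 ≤ N3)
    (t12 : N1 + N2 ≤ N12) (t23 : N2 + N3 ≤ N23) (t13 : N1 + N3 ≤ N13)
    (hq : N1 ^ 2 + N2 ^ 2 + N3 ^ 2 + N ^ 2 = N12 ^ 2 + N23 ^ 2 + N13 ^ 2) :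
    N + (N1 + N2 + N3) ≤ N12 + N23 + N13 := by
  by_contra hc
  push Not at hc
  have hS : 0 < N + (N1 + N2 + N3) := by linarith
  have e : (N + (N1 + N2 + N3) - (N12 + N23 + N13)) * (N + (N1 + N2 + N3)) =
      (N1 + N2 - N12) * (N3 + N - N12) + (N2 + N3 - N23) * (N1 + N - N23) +
        (N1 + N3 - N13) * (N2 + N - N13) := by linear_combination hq
  have p1 : (N1 + N2 - N12) * (N3 + N - N12) ≤ 0 :=
    mul_nonpos_of_nonpos_of_nonneg (by linarith) (by linarith)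
  have p2 : (N2 + N3 - N23) * (N1 + N - N23) ≤ 0 :=
    mul_nonpos_of_nonpos_of_nonneg (by linarith) (by linarith)
  have p3 : (N1 + N3 - N13) * (N2 + N - N13) ≤ 0 :=
    mul_nonpos_of_nonpos_of_nonneg (by linarith) (by linarith)
  have p4 : 0 < (N + (N1 + N2 + N3) - (N12 + N23 + N13)) * (N + (N1 + N2 + N3)) :=
    mul_pos (by linarith) hS
  linarith

theorem sqrt_superadd (a b c d : ℝ) (ha : 0 ≤ a) (hb : 0 ≤ b) (hc : 0 ≤ c) (hd : 0 ≤ d) :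
    √(a * b) + √(c * d) ≤ √((a + c) * (b + d)) := by
  rw [Real.sqrt_mul ha, Real.sqrt_mul hc]
  refine Real.le_sqrt_of_sq_le ?_
  have h1 := Real.sq_sqrt ha
  have h2 := Real.sq_sqrt hb
  have h3 := Real.sq_sqrt hc
  have h4 := Real.sq_sqrt hd
  have h5 : 0 ≤ (√a * √d - √c * √b) ^ 2 := sq_nonneg _
  nlinarith [h1, h2, h3, h4, h5]

theorem hlawka_sqrt (a1 a2 a3 b1 b2 b3 : ℝ) (ha1 : 0 ≤ a1) (ha2 : 0 ≤ a2) (ha3 : 0 ≤ a3)
    (hb1 : 0 ≤ b1) (hb2 : 0 ≤ b2) (hb3 : 0 ≤ b3) :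
    √((a1 + a2 + a3) * (b1 + b2 + b3)) + (√(a1 * b1) + √(a2 * b2) + √(a3 * b3)) ≤
      √((a1 + a2) * (b1 + b2)) + √((a2 + a3) * (b2 + b3)) + √((a1 + a3) * (b1 + b3)) := by
  refine hlawka _ _ _ _ _ _ _ (Real.sqrt_nonneg _) (Real.sqrt_nonneg _) (Real.sqrt_nonneg _)
    (sqrt_superadd _ _ _ _ ha1 hb1 ha2 hb2)
    (sqrt_superadd _ _ _ _ ha2 hb2 ha3 hb3) (sqrt_superadd _ _ _ _ ha1 hb1 ha3 hb3) ?_
  · rw [Real.sq_sqrt (by positivity), Real.sq_sqrt (by positivity), Real.sq_sqrt (by positivity),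
      Real.sq_sqrt (by positivity), Real.sq_sqrt (by positivity), Real.sq_sqrt (by positivity),
      Real.sq_sqrt (by positivity)]
    ring

/-- three terms inside the square root -/
theorem sqrt_superadd3 (a b c d e f : ℝ) (ha : 0 ≤ a) (hb : 0 ≤ b) (hc : 0 ≤ c) (hd : 0 ≤ d)
    (he : 0 ≤ e) (hf : 0 ≤ f) :
    √(a * b) + √(c * d) + √(e * f) ≤ √((a + c + e) * (b + d + f)) :=
  (add_le_add_left (sqrt_superadd a b c d ha hb hc hd) _).trans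
    (sqrt_superadd _ _ _ _ (add_nonneg ha hc) (add_nonneg hb hd) he hf)

/-- the letters of `J` -/
noncomputable def ja (j x : Fin 3) : ℝ := if x = j then 1 else if x = j + 1 then 1 / 2 else 0
noncomputable def jb (j y : Fin 3) : ℝ := if y = j then 1 else if y = j + 1 then 2 else 0

/-- the joint law of `X, Y, J` -/
noncomputable def G (x y j : Fin 3) : ℝ := 2 / 27 * (ja j x * jb j y)

theorem P_nonneg (x y : Fin 3) (z : Option (Fin 3 × Fin 3)) : 0 ≤ P x y z := by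
  cases z with
  | none =>
    change 0 ≤ if x = y then (2 / 27 : ℝ) else 0
    split <;> norm_num
  | some w =>
    change 0 ≤ if w = (x, y) then (if x = y then (2 / 27 : ℝ) else if y = x + 1 then 4 / 27
      else 1 / 27) else 0
    split
    · split
      · norm_num
      · split <;> norm_num
    · norm_num

theorem G_nonneg (x y j : Fin 3) : 0 ≤ G x y j := by
  unfold G ja jb
  refine mul_nonneg (by norm_num) (mul_nonneg ?_ ?_)
  · split; · norm_num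
    · split <;> norm_num
  · split; · norm_num
    · split <;> norm_num

theorem sum_P_eq (x y : Fin 3) : ∑ z, P x y z = ∑ j, G x y j := by
  rw [Fintype.sum_option, Fintype.sum_prod_type]
  fin_cases x <;> fin_cases y <;> simp [P, G, ja, jb, Fin.sum_univ_three] <;> norm_num

theorem letter (F H : Fin 3 × Fin 3 → ℝ) (hF : ∀ w, 0 ≤ F w) (hH : ∀ w, 0 ≤ H w) :
    ∑ z, √((∑ w : Fin 3 × Fin 3, P w.1 w.2 z * F w) * (∑ w : Fin 3 × Fin 3, P w.1 w.2 z * H w)) ≤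
      ∑ j, √((∑ w : Fin 3 × Fin 3, G w.1 w.2 j * F w) * (∑ w : Fin 3 × Fin 3, G w.1 w.2 j * H w)) := by
  have hF' : ∀ i j : Fin 3, 0 ≤ F (i, j) := fun i j => hF _
  have hH' : ∀ i j : Fin 3, 0 ≤ H (i, j) := fun i j => hH _
  simp only [Fintype.sum_option, Fintype.sum_prod_type, Fin.sum_univ_three]
  simp [P, G, ja, jb]
  have r0 : √((2 / 27 * F (0, 0) + 2 / 27 * 2 * F (0, 1) + (2 / 27 * 2⁻¹ * F (1, 0) + 2 / 27 * F (1, 1))) *
      (2 / 27 * H (0, 0) + 2 / 27 * 2 * H (0, 1) + (2 / 27 * 2⁻¹ * H (1, 0) + 2 / 27 * H (1, 1)))) =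
      √(((2 / 27 * F (0, 0) + 2 / 27 * F (1, 1)) + 4 / 27 * F (0, 1) + 27⁻¹ * F (1, 0)) *
      ((2 / 27 * H (0, 0) + 2 / 27 * H (1, 1)) + 4 / 27 * H (0, 1) + 27⁻¹ * H (1, 0))) := by congr 1; ring
  have r1 : √((2 / 27 * F (1, 1) + 2 / 27 * 2 * F (1, 2) + (2 / 27 * 2⁻¹ * F (2, 1) + 2 / 27 * F (2, 2))) *
      (2 / 27 * H (1, 1) + 2 / 27 * 2 * H (1, 2) + (2 / 27 * 2⁻¹ * H (2, 1) + 2 / 27 * H (2, 2)))) =
      √(((2 / 27 * F (1, 1) + 2 / 27 * F (2, 2)) + 4 / 27 * F (1, 2) + 27⁻¹ * F (2, 1)) *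
      ((2 / 27 * H (1, 1) + 2 / 27 * H (2, 2)) + 4 / 27 * H (1, 2) + 27⁻¹ * H (2, 1))) := by congr 1; ring
  have r2 : √((2 / 27 * F (0, 0) + 2 / 27 * 2⁻¹ * F (0, 2) + (2 / 27 * 2 * F (2, 0) + 2 / 27 * F (2, 2))) *
      (2 / 27 * H (0, 0) + 2 / 27 * 2⁻¹ * H (0, 2) + (2 / 27 * 2 * H (2, 0) + 2 / 27 * H (2, 2)))) =
      √(((2 / 27 * F (0, 0) + 2 / 27 * F (2, 2)) + 4 / 27 * F (2, 0) + 27⁻¹ * F (0, 2)) *
      ((2 / 27 * H (0, 0) + 2 / 27 * H (2, 2)) + 4 / 27 * H (2, 0) + 27⁻¹ * H (0, 2))) := by congr 1; ring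
  rw [r0, r1, r2]
  have h0 := hlawka_sqrt (2 / 27 * F (0, 0)) (2 / 27 * F (1, 1)) (2 / 27 * F (2, 2))
    (2 / 27 * H (0, 0)) (2 / 27 * H (1, 1)) (2 / 27 * H (2, 2))
    (mul_nonneg (by norm_num) (hF _)) (mul_nonneg (by norm_num) (hF _))
    (mul_nonneg (by norm_num) (hF _)) (mul_nonneg (by norm_num) (hH _))
    (mul_nonneg (by norm_num) (hH _)) (mul_nonneg (by norm_num) (hH _))
  have s0 := sqrt_superadd3 (2 / 27 * F (0, 0) + 2 / 27 * F (1, 1))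
    (2 / 27 * H (0, 0) + 2 / 27 * H (1, 1)) (4 / 27 * F (0, 1)) (4 / 27 * H (0, 1))
    (27⁻¹ * F (1, 0)) (27⁻¹ * H (1, 0))
    (add_nonneg (mul_nonneg (by norm_num) (hF _)) (mul_nonneg (by norm_num) (hF _)))
    (add_nonneg (mul_nonneg (by norm_num) (hH _)) (mul_nonneg (by norm_num) (hH _)))
    (mul_nonneg (by norm_num) (hF _)) (mul_nonneg (by norm_num) (hH _))
    (mul_nonneg (by norm_num) (hF _)) (mul_nonneg (by norm_num) (hH _))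
  have s1 := sqrt_superadd3 (2 / 27 * F (1, 1) + 2 / 27 * F (2, 2))
    (2 / 27 * H (1, 1) + 2 / 27 * H (2, 2)) (4 / 27 * F (1, 2)) (4 / 27 * H (1, 2))
    (27⁻¹ * F (2, 1)) (27⁻¹ * H (2, 1))
    (add_nonneg (mul_nonneg (by norm_num) (hF _)) (mul_nonneg (by norm_num) (hF _)))
    (add_nonneg (mul_nonneg (by norm_num) (hH _)) (mul_nonneg (by norm_num) (hH _)))
    (mul_nonneg (by norm_num) (hF _)) (mul_nonneg (by norm_num) (hH _))
    (mul_nonneg (by norm_num) (hF _)) (mul_nonneg (by norm_num) (hH _))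
  have s2 := sqrt_superadd3 (2 / 27 * F (0, 0) + 2 / 27 * F (2, 2))
    (2 / 27 * H (0, 0) + 2 / 27 * H (2, 2)) (4 / 27 * F (2, 0)) (4 / 27 * H (2, 0))
    (27⁻¹ * F (0, 2)) (27⁻¹ * H (0, 2))
    (add_nonneg (mul_nonneg (by norm_num) (hF _)) (mul_nonneg (by norm_num) (hF _)))
    (add_nonneg (mul_nonneg (by norm_num) (hH _)) (mul_nonneg (by norm_num) (hH _)))
    (mul_nonneg (by norm_num) (hF _)) (mul_nonneg (by norm_num) (hH _))
    (mul_nonneg (by norm_num) (hF _)) (mul_nonneg (by norm_num) (hH _))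
  linarith

theorem sum_cons {α : Type} [Fintype α] {n : ℕ} (f : (Fin (n + 1) → α) → ℝ) :
    ∑ z, f z = ∑ z0, ∑ z', f (Fin.cons z0 z') := by
  rw [← Fintype.sum_prod_type' (f := fun z0 z' => f (Fin.cons z0 z'))]
  exact (Fintype.sum_equiv (Fin.consEquiv (fun _ => α)) _ _ (fun _ => rfl)).symm

theorem tens {Ω Z J : Type} [Fintype Ω] [Fintype Z] [Fintype J] (K1 : Ω → Z → ℝ) (K2 : Ω → J → ℝ)
    (h1 : ∀ ω z, 0 ≤ K1 ω z) (h2 : ∀ ω j, 0 ≤ K2 ω j)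
    (h : ∀ F H : Ω → ℝ, (∀ ω, 0 ≤ F ω) → (∀ ω, 0 ≤ H ω) →
      ∑ z, √((∑ ω, K1 ω z * F ω) * (∑ ω, K1 ω z * H ω)) ≤
        ∑ j, √((∑ ω, K2 ω j * F ω) * (∑ ω, K2 ω j * H ω))) (n : ℕ) :
    ∀ F H : (Fin n → Ω) → ℝ, (∀ ω, 0 ≤ F ω) → (∀ ω, 0 ≤ H ω) →
      ∑ z : Fin n → Z, √((∑ ω, (∏ i, K1 (ω i) (z i)) * F ω) * (∑ ω, (∏ i, K1 (ω i) (z i)) * H ω)) ≤
        ∑ j : Fin n → J, √((∑ ω, (∏ i, K2 (ω i) (j i)) * F ω) *
          (∑ ω, (∏ i, K2 (ω i) (j i)) * H ω)) := by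
  induction n with
  | zero =>
    intro F H _ _
    simp
  | succ n ih =>
    intro F H hF hH
    rw [sum_cons, sum_cons]
    have e1 : ∀ (z0 : Z) (z' : Fin n → Z) (F : (Fin (n + 1) → Ω) → ℝ),
        ∑ ω, (∏ i, K1 (ω i) ((Fin.cons z0 z' : Fin (n + 1) → Z) i)) * F ω =
        ∑ ω' : Fin n → Ω, (∏ i, K1 (ω' i) (z' i)) * ∑ ω0, K1 ω0 z0 * F (Fin.cons ω0 ω') := by
      intro z0 z' F
      rw [sum_cons, Finset.sum_comm]
      refine Finset.sum_congr rfl fun ω' _ => ?_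
      rw [Finset.mul_sum]
      refine Finset.sum_congr rfl fun ω0 _ => ?_
      rw [Fin.prod_univ_succ]
      simp only [Fin.cons_zero, Fin.cons_succ]
      ring
    have e2 : ∀ (j0 : J) (j' : Fin n → J) (F : (Fin (n + 1) → Ω) → ℝ),
        ∑ ω, (∏ i, K2 (ω i) ((Fin.cons j0 j' : Fin (n + 1) → J) i)) * F ω =
        ∑ ω0, K2 ω0 j0 * ∑ ω' : Fin n → Ω, (∏ i, K2 (ω' i) (j' i)) * F (Fin.cons ω0 ω') := by
      intro j0 j' F
      rw [sum_cons]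
      refine Finset.sum_congr rfl fun ω0 _ => ?_
      rw [Finset.mul_sum]
      refine Finset.sum_congr rfl fun ω' _ => ?_
      rw [Fin.prod_univ_succ]
      simp only [Fin.cons_zero, Fin.cons_succ]
      ring
    have e3 : ∀ (z0 : Z) (j' : Fin n → J) (F : (Fin (n + 1) → Ω) → ℝ),
        ∑ ω' : Fin n → Ω, (∏ i, K2 (ω' i) (j' i)) * ∑ ω0, K1 ω0 z0 * F (Fin.cons ω0 ω') =
        ∑ ω0, K1 ω0 z0 * ∑ ω' : Fin n → Ω, (∏ i, K2 (ω' i) (j' i)) * F (Fin.cons ω0 ω') := by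
      intro z0 j' F
      simp only [Finset.mul_sum]
      rw [Finset.sum_comm]
      refine Finset.sum_congr rfl fun ω0 _ => Finset.sum_congr rfl fun ω' _ => ?_
      ring
    simp only [e1, e2]
    calc _ ≤ ∑ z0 : Z, ∑ j' : Fin n → J,
          √((∑ ω' : Fin n → Ω, (∏ i, K2 (ω' i) (j' i)) * ∑ ω0, K1 ω0 z0 * F (Fin.cons ω0 ω')) *
          (∑ ω' : Fin n → Ω, (∏ i, K2 (ω' i) (j' i)) * ∑ ω0, K1 ω0 z0 * H (Fin.cons ω0 ω'))) := by
          refine Finset.sum_le_sum fun z0 _ => ih _ _ (fun ω' => ?_) (fun ω' => ?_)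
          · exact Finset.sum_nonneg fun ω0 _ => mul_nonneg (h1 _ _) (hF _)
          · exact Finset.sum_nonneg fun ω0 _ => mul_nonneg (h1 _ _) (hH _)
      _ = ∑ j' : Fin n → J, ∑ z0 : Z,
          √((∑ ω0, K1 ω0 z0 * ∑ ω' : Fin n → Ω, (∏ i, K2 (ω' i) (j' i)) * F (Fin.cons ω0 ω')) *
          (∑ ω0, K1 ω0 z0 * ∑ ω' : Fin n → Ω, (∏ i, K2 (ω' i) (j' i)) * H (Fin.cons ω0 ω'))) := by
          rw [Finset.sum_comm]
          simp only [e3]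
      _ ≤ ∑ j' : Fin n → J, ∑ j0 : J,
          √((∑ ω0, K2 ω0 j0 * ∑ ω' : Fin n → Ω, (∏ i, K2 (ω' i) (j' i)) * F (Fin.cons ω0 ω')) *
          (∑ ω0, K2 ω0 j0 * ∑ ω' : Fin n → Ω, (∏ i, K2 (ω' i) (j' i)) * H (Fin.cons ω0 ω'))) := by
          refine Finset.sum_le_sum fun j' _ => h _ _ (fun ω0 => ?_) (fun ω0 => ?_)
          · exact Finset.sum_nonneg fun ω' _ =>
              mul_nonneg (Finset.prod_nonneg fun i _ => h2 _ _) (hF _)
          · exact Finset.sum_nonneg fun ω' _ =>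
              mul_nonneg (Finset.prod_nonneg fun i _ => h2 _ _) (hH _)
      _ = _ := Finset.sum_comm

end Vale.Agent.P372B
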