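import Vale.Agent.P372B.Def

/-! # P372: the intrinsic information is at least 1/2916 (helper37) -/

namespace Vale.Agent.P372B

open Finset

theorem pt_ineq (p R : ℝ) (hp : 0 ≤ p) (hR : 0 ≤ R) (h : 0 < p → 0 < R) :
    (|p - R| - (p + R) / 108) / 54 + (p - R) ≤ p * Real.log (p / R) := by
  rcases hp.eq_or_lt with h0 | h0
  · subst h0
    rw [zero_sub, abs_neg, abs_of_nonneg hR]
    simp
    linarith
  · have hR0 := h h0
    obtain ⟨a, ha, rfl⟩ : ∃ a : ℝ, 0 < a ∧ a ^ 2 = p := ⟨√p, Real.sqrt_pos.mpr h0, Real.sq_sqrt hp⟩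
    obtain ⟨b, hb, rfl⟩ : ∃ b : ℝ, 0 < b ∧ b ^ 2 = R := ⟨√R, Real.sqrt_pos.mpr hR0, Real.sq_sqrt hR⟩
    have h1 : Real.log (a ^ 2 / b ^ 2) = -(2 * Real.log (b / a)) := by
      rw [← div_pow, Real.log_pow, Real.log_div ha.ne' hb.ne', Real.log_div hb.ne' ha.ne']
      push_cast
      ring
    have h2 : Real.log (b / a) ≤ b / a - 1 := Real.log_le_sub_one_of_pos (div_pos hb ha)
    have h3 : 2 * a ^ 2 - 2 * a * b ≤ a ^ 2 * Real.log (a ^ 2 / b ^ 2) := by
      rw [h1]
      have h4 : a ^ 2 * (b / a) = a * b := by field_simp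
      nlinarith [mul_le_mul_of_nonneg_left h2 (sq_nonneg a)]
    have h5 : |a ^ 2 - b ^ 2| ≤ 54 * (a - b) ^ 2 + (a ^ 2 + b ^ 2) / 108 := by
      rw [abs_le]
      constructor
      · nlinarith [sq_nonneg (108 * (a - b) + (a + b)), sq_nonneg (a - b)]
      · nlinarith [sq_nonneg (108 * (a - b) - (a + b)), sq_nonneg (a - b)]
    nlinarith [h3, h5]

section

variable {m : ℕ} (W : Option (Fin 3 × Fin 3) → Fin m → ℝ)

/-- the product distribution -/
noncomputable def Rw (x y : Fin 3) (w : Fin m) : ℝ := pXW W x w * pYW W y w / pW W w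

theorem P_nonneg' (x y : Fin 3) (z : Option (Fin 3 × Fin 3)) : 0 ≤ P x y z := by
  cases z with
  | none =>
    change 0 ≤ if x = y then (2 / 27 : ℝ) else 0
    split <;> norm_num
  | some w =>
    change 0 ≤ if w = (x, y) then (if x = y then (2 / 27 : ℝ) else if y = x + 1 then 4 / 27
      else 1 / 27) else 0
    split
    · split
      · norm_num
      · split <;> norm_num
    · norm_num

theorem pXYW_nonneg (hW : ∀ z w, 0 ≤ W z w) (x y : Fin 3) (w : Fin m) : 0 ≤ pXYW W x y w :=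
  Finset.sum_nonneg fun z _ => mul_nonneg (P_nonneg' _ _ _) (hW _ _)

theorem pXYW_le_pXW (hW : ∀ z w, 0 ≤ W z w) (x y : Fin 3) (w : Fin m) :
    pXYW W x y w ≤ pXW W x w :=
  Finset.single_le_sum (f := fun y => pXYW W x y w) (fun y _ => pXYW_nonneg W hW x y w)
    (Finset.mem_univ y)

theorem pXYW_le_pYW (hW : ∀ z w, 0 ≤ W z w) (x y : Fin 3) (w : Fin m) :
    pXYW W x y w ≤ pYW W y w :=
  Finset.single_le_sum (f := fun x => pXYW W x y w) (fun x _ => pXYW_nonneg W hW x y w)
    (Finset.mem_univ x)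

theorem pXW_nonneg (hW : ∀ z w, 0 ≤ W z w) (x : Fin 3) (w : Fin m) : 0 ≤ pXW W x w :=
  Finset.sum_nonneg fun y _ => pXYW_nonneg W hW x y w

theorem pYW_nonneg (hW : ∀ z w, 0 ≤ W z w) (y : Fin 3) (w : Fin m) : 0 ≤ pYW W y w :=
  Finset.sum_nonneg fun x _ => pXYW_nonneg W hW x y w

theorem pXW_le_pW (hW : ∀ z w, 0 ≤ W z w) (x : Fin 3) (w : Fin m) : pXW W x w ≤ pW W w :=
  Finset.single_le_sum (f := fun x => pXW W x w) (fun x _ => pXW_nonneg W hW x w)
    (Finset.mem_univ x)

theorem pW_nonneg (hW : ∀ z w, 0 ≤ W z w) (w : Fin m) : 0 ≤ pW W w :=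
  Finset.sum_nonneg fun x _ => pXW_nonneg W hW x w

theorem Rw_nonneg (hW : ∀ z w, 0 ≤ W z w) (x y : Fin 3) (w : Fin m) : 0 ≤ Rw W x y w :=
  div_nonneg (mul_nonneg (pXW_nonneg W hW x w) (pYW_nonneg W hW y w)) (pW_nonneg W hW w)

theorem sum_pYW (w : Fin m) : ∑ y, pYW W y w = pW W w := by
  unfold pYW pW
  rw [Finset.sum_comm]

theorem sum_Rw (w : Fin m) : ∑ x, ∑ y, Rw W x y w = pW W w := by
  have h1 : ∀ x, ∑ y, Rw W x y w = pXW W x w * pW W w / pW W w := by
    intro x
    unfold Rw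
    rw [← Finset.sum_div, ← Finset.mul_sum, sum_pYW]
  rw [Finset.sum_congr rfl fun x _ => h1 x, ← Finset.sum_div, ← Finset.sum_mul]
  change pW W w * pW W w / pW W w = pW W w
  exact mul_self_div_self _

theorem term_ge (hW : ∀ z w, 0 ≤ W z w) (x y : Fin 3) (w : Fin m) :
    (|pXYW W x y w - Rw W x y w| - (pXYW W x y w + Rw W x y w) / 108) / 54 +
      (pXYW W x y w - Rw W x y w) ≤ pXYW W x y w *
        Real.log (pXYW W x y w * pW W w / (pXW W x w * pYW W y w)) := by
  have h1 : pXYW W x y w * pW W w / (pXW W x w * pYW W y w) = pXYW W x y w / Rw W x y w := by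
    unfold Rw
    rw [div_div_eq_mul_div]
  rw [h1]
  refine pt_ineq _ _ (pXYW_nonneg W hW x y w) (Rw_nonneg W hW x y w) fun h => ?_
  have h2 := h.trans_le (pXYW_le_pXW W hW x y w)
  have h3 := h.trans_le (pXYW_le_pYW W hW x y w)
  exact div_pos (mul_pos h2 h3) (h2.trans_le (pXW_le_pW W hW x w))

theorem amgm3 (a b c M : ℝ) (ha : 0 ≤ a) (hb : 0 ≤ b) (hc : 0 ≤ c) (hM : 0 ≤ M)
    (h : M ^ 3 ≤ a * b * c) : 3 * M ≤ a + b + c := by
  by_contra hcon
  push Not at hcon
  have h1 : (a + b + c) ^ 3 < (3 * M) ^ 3 :=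
    pow_lt_pow_left₀ hcon (by positivity) (by norm_num)
  have h2 : 27 * (a * b * c) ≤ (a + b + c) ^ 3 := by
    nlinarith [mul_nonneg ha (sq_nonneg (b - c)), mul_nonneg hb (sq_nonneg (a - c)),
      mul_nonneg hc (sq_nonneg (a - b)), mul_nonneg ha (sq_nonneg (a - b)),
      mul_nonneg hb (sq_nonneg (b - c)), mul_nonneg hc (sq_nonneg (c - a)),
      mul_nonneg ha (sq_nonneg (a - c)), mul_nonneg hb (sq_nonneg (b - a)),
      mul_nonneg hc (sq_nonneg (c - b)), mul_nonneg (add_nonneg ha (add_nonneg hb hc))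
      (sq_nonneg (a - b)), mul_nonneg (add_nonneg ha (add_nonneg hb hc)) (sq_nonneg (b - c))]
  nlinarith

/-- one value of `w` -/
theorem one_w (hW : ∀ z w, 0 ≤ W z w) (w : Fin m) :
    2 / 9 * W none w - 3 * ∑ x, ∑ y, |pXYW W x y w - Rw W x y w| ≤
      1 / 27 * (W (some (1, 0)) w + W (some (2, 1)) w + W (some (0, 2)) w) := by
  have hp : ∀ x : Fin 3, 2 / 27 * W none w ≤ pXYW W x x w := by
    intro x
    have h1 := Finset.single_le_sum (f := fun z => P x x z * W z w)
      (fun z _ => mul_nonneg (P_nonneg' _ _ _) (hW _ _)) (Finset.mem_univ none)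
    have h2 : P x x none = 2 / 27 := by
      change (if x = x then (2 / 27 : ℝ) else 0) = _
      rw [if_pos rfl]
    simp only [h2] at h1
    exact h1
  have hq : ∀ x y : Fin 3, x = y + 1 → pXYW W x y w = 1 / 27 * W (some (x, y)) w := by
    intro x y hxy
    unfold pXYW
    rw [Finset.sum_eq_single (some (x, y))]
    · congr 1
      change (if (x, y) = (x, y) then (if x = y then (2 / 27 : ℝ) else if y = x + 1 then 4 / 27
        else 1 / 27) else 0) = _
      subst hxy
      rw [if_pos rfl, if_neg, if_neg]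
      · revert y; decide
      · revert y; decide
    · intro z _ hz
      cases z with
      | none =>
        change (if x = y then (2 / 27 : ℝ) else 0) * _ = 0
        subst hxy
        rw [if_neg, zero_mul]
        revert y; decide
      | some v =>
        change (if v = (x, y) then (if x = y then (2 / 27 : ℝ) else if y = x + 1 then 4 / 27
          else 1 / 27) else 0) * _ = 0
        rw [if_neg, zero_mul]
        intro hv
        exact hz (by rw [hv])
    · intro h
      exact absurd (Finset.mem_univ _) h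
  have hR := Rw_nonneg W hW
  set e : Fin 3 → Fin 3 → ℝ := fun x y => |pXYW W x y w - Rw W x y w| with he
  have he0 : ∀ x y, 0 ≤ e x y := fun x y => abs_nonneg _
  have hd : ∀ x, pXYW W x x w - e x x ≤ Rw W x x w := fun x => by
    have := le_abs_self (pXYW W x x w - Rw W x x w)
    simp only [he]
    linarith
  have ht : ∀ x y, Rw W x y w ≤ pXYW W x y w + e x y := fun x y => by
    have := neg_abs_le (pXYW W x y w - Rw W x y w)
    simp only [he]
    linarith
  have hrank : Rw W 0 0 w * Rw W 1 1 w * Rw W 2 2 w = Rw W 1 0 w * Rw W 2 1 w * Rw W 0 2 w := by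
    unfold Rw
    ring
  have hE : e 0 0 + e 1 1 + e 2 2 + (e 1 0 + e 2 1 + e 0 2) ≤ ∑ x, ∑ y, e x y := by
    simp only [Fin.sum_univ_three]
    have := he0 0 1
    have := he0 1 2
    have := he0 2 0
    linarith
  have h10 := hq 1 0 (by decide)
  have h21 := hq 2 1 (by decide)
  have h02 := hq 0 2 (by decide)
  set E := ∑ x, ∑ y, e x y
  have hm : ∀ x, 2 / 27 * W none w - (e 0 0 + e 1 1 + e 2 2) ≤ Rw W x x w := by
    intro x
    have h1 := hp x
    have h2 := hd x
    have h3 : e x x ≤ e 0 0 + e 1 1 + e 2 2 := by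
      have := he0 0 0
      have := he0 1 1
      have := he0 2 2
      fin_cases x <;> simp <;> linarith
    linarith
  by_cases hneg : 2 / 27 * W none w - (e 0 0 + e 1 1 + e 2 2) ≤ 0
  · have := hW (some (1, 0)) w
    have := hW (some (2, 1)) w
    have := hW (some (0, 2)) w
    have := he0 1 0
    have := he0 2 1
    have := he0 0 2
    linarith
  · push Not at hneg
    have h1 := amgm3 (Rw W 1 0 w) (Rw W 2 1 w) (Rw W 0 2 w)
      (2 / 27 * W none w - (e 0 0 + e 1 1 + e 2 2)) (hR _ _ _) (hR _ _ _) (hR _ _ _) hneg.le (by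
        rw [← hrank, pow_succ, pow_two]
        exact mul_le_mul (mul_le_mul (hm 0) (hm 1) hneg.le (hR _ _ _)) (hm 2) hneg.le
          (mul_nonneg (hR _ _ _) (hR _ _ _)))
    have h2 := ht 1 0
    have h3 := ht 2 1
    have h4 := ht 0 2
    rw [h10] at h2
    rw [h21] at h3
    rw [h02] at h4
    have := he0 1 0
    have := he0 2 1
    have := he0 0 2
    linarith

theorem sum_pW (hW1 : ∀ z, ∑ w, W z w = 1) : ∑ w, pW W w = 1 := by
  unfold pW pXYW
  have h1 : ∑ w : Fin m, ∑ x, ∑ y, ∑ z, P x y z * W z w = ∑ x, ∑ y, ∑ z, P x y z := by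
    rw [Finset.sum_comm]
    refine Finset.sum_congr rfl fun x _ => ?_
    rw [Finset.sum_comm]
    refine Finset.sum_congr rfl fun y _ => ?_
    rw [Finset.sum_comm]
    refine Finset.sum_congr rfl fun z _ => ?_
    rw [← Finset.mul_sum, hW1, mul_one]
  rw [h1]
  simp only [Fintype.sum_option, Fintype.sum_prod_type, Fin.sum_univ_three]
  simp [P]
  norm_num

theorem intr (hW : ∀ z w, 0 ≤ W z w) (hW1 : ∀ z, ∑ w, W z w = 1) : 1 / 2916 ≤ condInfo W := by
  have h1 : ∑ w, (2 / 9 * W none w - 3 * ∑ x, ∑ y, |pXYW W x y w - Rw W x y w|) ≤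
      ∑ w, 1 / 27 * (W (some (1, 0)) w + W (some (2, 1)) w + W (some (0, 2)) w) :=
    Finset.sum_le_sum fun w _ => one_w W hW w
  rw [Finset.sum_sub_distrib, ← Finset.mul_sum, ← Finset.mul_sum, ← Finset.mul_sum,
    Finset.sum_add_distrib, Finset.sum_add_distrib, hW1, hW1, hW1, hW1] at h1
  have h2 : ∑ w, ∑ x, ∑ y, ((|pXYW W x y w - Rw W x y w| -
      (pXYW W x y w + Rw W x y w) / 108) / 54 + (pXYW W x y w - Rw W x y w)) ≤ condInfo W :=
    Finset.sum_le_sum fun w _ => Finset.sum_le_sum fun x _ => Finset.sum_le_sum fun y _ =>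
      term_ge W hW x y w
  have h3 : ∑ w, ∑ x, ∑ y, ((|pXYW W x y w - Rw W x y w| -
      (pXYW W x y w + Rw W x y w) / 108) / 54 + (pXYW W x y w - Rw W x y w)) =
      (∑ w, ∑ x, ∑ y, |pXYW W x y w - Rw W x y w|) / 54 - 2 / 108 / 54 := by
    have e1 : ∀ w, ∑ x, ∑ y, ((|pXYW W x y w - Rw W x y w| -
      (pXYW W x y w + Rw W x y w) / 108) / 54 + (pXYW W x y w - Rw W x y w)) =
      (∑ x, ∑ y, |pXYW W x y w - Rw W x y w|) / 54 - 2 / 108 / 54 * pW W w := by
      intro w
      have a1 := sum_Rw W w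
      have a2 : ∑ x, ∑ y, pXYW W x y w = pW W w := rfl
      simp only [Finset.sum_add_distrib, Finset.sum_sub_distrib, ← Finset.sum_div] at *
      rw [a1, a2]
      ring
    rw [Finset.sum_congr rfl fun w _ => e1 w, Finset.sum_sub_distrib, ← Finset.sum_div,
      ← Finset.mul_sum, sum_pW W hW1, mul_one]
  rw [h3] at h2
  linarith

end

end Vale.Agent.P372B
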