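import Vale.Agent.P372B.Core

/-! # P372: every public-discussion protocol has error at least 1/2 (helper37) -/

namespace Vale.Agent.P372B

open Finset Classical

namespace Protocol

variable {n l : ℕ} (π : Protocol n l)

/-- Alice's consistency with a transcript -/
def cA (x : Fin n → Fin 3) (a : Fin π.p) : List (Bool × Bool) → Prop
  | [] => True
  | m :: t => m.1 = π.msgA x a t ∧ cA x a t

/-- Bob's consistency with a transcript -/
def cB (y : Fin n → Fin 3) (b : Fin π.q) : List (Bool × Bool) → Prop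
  | [] => True
  | m :: t => m.2 = π.msgB y b t ∧ cB y b t

theorem tr_length (x : Fin n → Fin 3) (a : Fin π.p) (y : Fin n → Fin 3) (b : Fin π.q) (k : ℕ) :
    (π.tr x a y b k).length = k := by
  induction k with
  | zero => rfl
  | succ k ih => simp [tr, ih]

theorem tr_eq_iff (x : Fin n → Fin 3) (a : Fin π.p) (y : Fin n → Fin 3) (b : Fin π.q) (k : ℕ) :
    ∀ t : List (Bool × Bool), t.length = k →
      (π.tr x a y b k = t ↔ π.cA x a t ∧ π.cB y b t) := by
  induction k with
  | zero =>
    intro t ht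
    rw [List.length_eq_zero_iff] at ht
    subst ht
    simp [tr, cA, cB]
  | succ k ih =>
    intro t ht
    cases t with
    | nil => simp at ht
    | cons m t =>
      have ht' : t.length = k := by simpa using ht
      have h1 := ih t ht'
      obtain ⟨m1, m2⟩ := m
      simp only [tr, cA, cB, List.cons.injEq, Prod.mk.injEq]
      constructor
      · rintro ⟨⟨h2, h3⟩, h4⟩
        rw [h4] at h2 h3
        exact ⟨⟨h2.symm, (h1.mp h4).1⟩, h3.symm, (h1.mp h4).2⟩
      · rintro ⟨⟨h2, h3⟩, h4, h5⟩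
        have h6 := h1.mpr ⟨h3, h5⟩
        rw [h6]
        exact ⟨⟨h2.symm, h4.symm⟩, rfl⟩

/-- Alice's weight of the transcript `f` together with a property of her key -/
noncomputable def wA (S : Set (Fin l → Bool)) (f : Fin π.r → Bool × Bool) (x : Fin n → Fin 3) : ℝ :=
  ∑ a, if π.cA x a (List.ofFn f) ∧ π.keyA x a (List.ofFn f) ∈ S then π.u a else 0

noncomputable def wB (S : Set (Fin l → Bool)) (f : Fin π.r → Bool × Bool) (y : Fin n → Fin 3) : ℝ :=
  ∑ b, if π.cB y b (List.ofFn f) ∧ π.keyB y b (List.ofFn f) ∈ S then π.v b else 0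

theorem wA_nonneg (S : Set (Fin l → Bool)) (f : Fin π.r → Bool × Bool) (x : Fin n → Fin 3) :
    0 ≤ π.wA S f x := by
  refine Finset.sum_nonneg fun a _ => ?_
  split
  · exact π.u_nonneg a
  · exact le_rfl

theorem wB_nonneg (S : Set (Fin l → Bool)) (f : Fin π.r → Bool × Bool) (y : Fin n → Fin 3) :
    0 ≤ π.wB S f y := Finset.sum_nonneg fun a _ => by
  split
  · exact π.v_nonneg a
  · exact le_rfl

/-- joint probability that the keys lie in `S` and `S'`, and of `z`, `f` -/
noncomputable def Q (S S' : Set (Fin l → Bool)) (z : Fin n → Option (Fin 3 × Fin 3))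
    (f : Fin π.r → Bool × Bool) : ℝ :=
  ∑ x : Fin n → Fin 3, ∑ y : Fin n → Fin 3, Pn x y z * (π.wA S f x * π.wB S' f y)

theorem Q_nonneg (S S' : Set (Fin l → Bool)) (z : Fin n → Option (Fin 3 × Fin 3))
    (f : Fin π.r → Bool × Bool) : 0 ≤ π.Q S S' z f :=
  Finset.sum_nonneg fun x _ => Finset.sum_nonneg fun y _ =>
    mul_nonneg (Pn_nonneg _ _ _) (mul_nonneg (π.wA_nonneg _ _ _) (π.wB_nonneg _ _ _))

/-- explicit form -/
theorem Q_eq (S S' : Set (Fin l → Bool)) (z : Fin n → Option (Fin 3 × Fin 3))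
    (f : Fin π.r → Bool × Bool) : π.Q S S' z f =
      ∑ x : Fin n → Fin 3, ∑ y : Fin n → Fin 3, ∑ a, ∑ b,
        if π.tr x a y b π.r = List.ofFn f ∧ π.keyA x a (List.ofFn f) ∈ S ∧
          π.keyB y b (List.ofFn f) ∈ S' then Pn x y z * π.u a * π.v b else 0 := by
  unfold Q
  refine Finset.sum_congr rfl fun x _ => Finset.sum_congr rfl fun y _ => ?_
  unfold wA wB
  rw [Finset.sum_mul_sum, Finset.mul_sum]
  refine Finset.sum_congr rfl fun a _ => ?_
  rw [Finset.mul_sum]
  refine Finset.sum_congr rfl fun b _ => ?_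
  have h0 := π.tr_eq_iff x a y b π.r (List.ofFn f) (by simp)
  by_cases h1 : π.cA x a (List.ofFn f) <;> by_cases h2 : π.cB y b (List.ofFn f) <;>
    by_cases h3 : π.keyA x a (List.ofFn f) ∈ S <;> by_cases h4 : π.keyB y b (List.ofFn f) ∈ S' <;>
    simp [h0, h1, h2, h3, h4, mul_assoc]

theorem joint_eq (s s' : Fin l → Bool) (z : Fin n → Option (Fin 3 × Fin 3))
    (f : Fin π.r → Bool × Bool) : π.joint s s' z f = π.Q {s} {s'} z f := by
  rw [Q_eq]
  unfold joint
  refine Finset.sum_congr rfl fun x _ => Finset.sum_congr rfl fun y _ =>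
    Finset.sum_congr rfl fun a _ => Finset.sum_congr rfl fun b _ => ?_
  by_cases h1 : π.tr x a y b π.r = List.ofFn f <;> by_cases h2 : π.keyA x a (List.ofFn f) = s <;>
    by_cases h3 : π.keyB y b (List.ofFn f) = s' <;> simp [h1, h2, h3]

theorem Q_sum (S S' : Set (Fin l → Bool)) (z : Fin n → Option (Fin 3 × Fin 3))
    (f : Fin π.r → Bool × Bool) : π.Q S S' z f =
      ∑ s : Fin l → Bool, ∑ s' : Fin l → Bool, if s ∈ S ∧ s' ∈ S' then π.joint s s' z f else 0 := by
  have hA : ∀ x, π.wA S f x = ∑ s : Fin l → Bool, if s ∈ S then π.wA {s} f x else 0 := by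
    intro x
    have e : ∀ s : Fin l → Bool, (if s ∈ S then π.wA {s} f x else 0) =
        ∑ a, if s ∈ S ∧ π.cA x a (List.ofFn f) ∧ π.keyA x a (List.ofFn f) = s then π.u a
          else 0 := by
      intro s
      by_cases hs : s ∈ S
      · rw [if_pos hs]
        unfold wA
        refine Finset.sum_congr rfl fun a _ => ?_
        by_cases h1 : π.cA x a (List.ofFn f) <;>
          by_cases h2 : π.keyA x a (List.ofFn f) = s <;> simp [hs, h1, h2]
      · simp [hs]
    rw [Finset.sum_congr rfl fun s _ => e s, Finset.sum_comm]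
    unfold wA
    refine Finset.sum_congr rfl fun a _ => ?_
    rw [Finset.sum_eq_single (π.keyA x a (List.ofFn f))]
    · by_cases h1 : π.cA x a (List.ofFn f) <;>
        by_cases h2 : π.keyA x a (List.ofFn f) ∈ S <;> simp [h1, h2]
    · intro s _ hs
      rw [if_neg]
      rintro ⟨-, -, h⟩
      exact hs h.symm
    · intro h
      exact absurd (Finset.mem_univ _) h
  have hB : ∀ x, π.wB S' f x = ∑ s : Fin l → Bool, if s ∈ S' then π.wB {s} f x else 0 := by
    intro x
    have e : ∀ s : Fin l → Bool, (if s ∈ S' then π.wB {s} f x else 0) =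
        ∑ a, if s ∈ S' ∧ π.cB x a (List.ofFn f) ∧ π.keyB x a (List.ofFn f) = s then π.v a
          else 0 := by
      intro s
      by_cases hs : s ∈ S'
      · rw [if_pos hs]
        unfold wB
        refine Finset.sum_congr rfl fun a _ => ?_
        by_cases h1 : π.cB x a (List.ofFn f) <;>
          by_cases h2 : π.keyB x a (List.ofFn f) = s <;> simp [hs, h1, h2]
      · simp [hs]
    rw [Finset.sum_congr rfl fun s _ => e s, Finset.sum_comm]
    unfold wB
    refine Finset.sum_congr rfl fun a _ => ?_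
    rw [Finset.sum_eq_single (π.keyB x a (List.ofFn f))]
    · by_cases h1 : π.cB x a (List.ofFn f) <;>
        by_cases h2 : π.keyB x a (List.ofFn f) ∈ S' <;> simp [h1, h2]
    · intro s _ hs
      rw [if_neg]
      rintro ⟨-, -, h⟩
      exact hs h.symm
    · intro h
      exact absurd (Finset.mem_univ _) h
  simp only [joint_eq]
  unfold Q
  have e1 : ∀ s s' : Fin l → Bool, (if s ∈ S ∧ s' ∈ S' then
      ∑ x : Fin n → Fin 3, ∑ y : Fin n → Fin 3, Pn x y z * (π.wA {s} f x * π.wB {s'} f y) else 0) =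
      ∑ x : Fin n → Fin 3, ∑ y : Fin n → Fin 3, Pn x y z *
        ((if s ∈ S then π.wA {s} f x else 0) * (if s' ∈ S' then π.wB {s'} f y else 0)) := by
    intro s s'
    by_cases h1 : s ∈ S <;> by_cases h2 : s' ∈ S' <;> simp [h1, h2]
  simp only [e1]
  rw [show (∑ s : Fin l → Bool, ∑ s' : Fin l → Bool, ∑ x : Fin n → Fin 3, ∑ y : Fin n → Fin 3,
      Pn x y z * ((if s ∈ S then π.wA {s} f x else 0) * (if s' ∈ S' then π.wB {s'} f y else 0))) =
      ∑ x : Fin n → Fin 3, ∑ y : Fin n → Fin 3, ∑ s : Fin l → Bool, ∑ s' : Fin l → Bool,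
      Pn x y z * ((if s ∈ S then π.wA {s} f x else 0) * (if s' ∈ S' then π.wB {s'} f y else 0)) from ?_]
  · refine Finset.sum_congr rfl fun x _ => Finset.sum_congr rfl fun y _ => ?_
    rw [hA, hB, Finset.sum_mul_sum, Finset.mul_sum]
    refine Finset.sum_congr rfl fun s _ => ?_
    rw [Finset.mul_sum]
  · calc _ = ∑ s : Fin l → Bool, ∑ x : Fin n → Fin 3, ∑ s' : Fin l → Bool, ∑ y : Fin n → Fin 3,
        Pn x y z * ((if s ∈ S then π.wA {s} f x else 0) * (if s' ∈ S' then π.wB {s'} f y else 0)) :=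
          Finset.sum_congr rfl fun s _ => Finset.sum_comm
      _ = ∑ x : Fin n → Fin 3, ∑ s : Fin l → Bool, ∑ s' : Fin l → Bool, ∑ y : Fin n → Fin 3,
        Pn x y z * ((if s ∈ S then π.wA {s} f x else 0) * (if s' ∈ S' then π.wB {s'} f y else 0)) :=
          Finset.sum_comm
      _ = ∑ x : Fin n → Fin 3, ∑ s : Fin l → Bool, ∑ y : Fin n → Fin 3, ∑ s' : Fin l → Bool,
        Pn x y z * ((if s ∈ S then π.wA {s} f x else 0) * (if s' ∈ S' then π.wB {s'} f y else 0)) :=
          Finset.sum_congr rfl fun x _ => Finset.sum_congr rfl fun s _ => Finset.sum_comm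
      _ = _ := Finset.sum_congr rfl fun x _ => Finset.sum_comm

theorem Q_univ (z : Fin n → Option (Fin 3 × Fin 3)) (f : Fin π.r → Bool × Bool) :
    π.Q Set.univ Set.univ z f = ∑ x : Fin n → Fin 3, ∑ y : Fin n → Fin 3, ∑ a, ∑ b,
      if π.tr x a y b π.r = List.ofFn f then Pn x y z * π.u a * π.v b else 0 := by
  rw [Q_eq]
  refine Finset.sum_congr rfl fun x _ => Finset.sum_congr rfl fun y _ =>
    Finset.sum_congr rfl fun a _ => Finset.sum_congr rfl fun b _ => ?_
  by_cases h1 : π.tr x a y b π.r = List.ofFn f <;> simp [h1]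

theorem Q_total : ∑ z, ∑ f, π.Q Set.univ Set.univ z f = 1 := by
  have e1 : ∀ z : Fin n → Option (Fin 3 × Fin 3), ∑ f : Fin π.r → Bool × Bool,
      π.Q Set.univ Set.univ z f = ∑ x : Fin n → Fin 3, ∑ y : Fin n → Fin 3, Pn x y z := by
    intro z
    rw [Finset.sum_congr rfl fun f _ => π.Q_univ z f, Finset.sum_comm]
    refine Finset.sum_congr rfl fun x _ => ?_
    rw [Finset.sum_comm]
    refine Finset.sum_congr rfl fun y _ => ?_
    rw [Finset.sum_comm]
    have e2 : ∀ a : Fin π.p, ∑ f : Fin π.r → Bool × Bool, ∑ b,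
        (if π.tr x a y b π.r = List.ofFn f then Pn x y z * π.u a * π.v b else 0) =
        Pn x y z * π.u a := by
      intro a
      rw [Finset.sum_comm]
      have e3 : ∀ b : Fin π.q, ∑ f : Fin π.r → Bool × Bool,
          (if π.tr x a y b π.r = List.ofFn f then Pn x y z * π.u a * π.v b else 0) =
          Pn x y z * π.u a * π.v b := by
        intro b
        have hl := π.tr_length x a y b π.r
        have h0 : List.ofFn (fun i : Fin π.r => (π.tr x a y b π.r).get (i.cast hl.symm)) =
            π.tr x a y b π.r := by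
          apply List.ext_get
          · simp [hl]
          · intro i h1 h2
            simp
        rw [Finset.sum_eq_single (fun i : Fin π.r => (π.tr x a y b π.r).get (i.cast hl.symm))]
        · rw [if_pos h0.symm]
        · intro f _ hf
          rw [if_neg]
          intro h1
          apply hf
          apply List.ofFn_injective
          rw [h0, h1]
        · intro h
          exact absurd (Finset.mem_univ _) h
      rw [Finset.sum_congr rfl fun b _ => e3 b, ← Finset.mul_sum, π.v_sum, mul_one]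
    rw [Finset.sum_congr rfl fun a _ => e2 a, ← Finset.mul_sum, π.u_sum, mul_one]
  rw [Finset.sum_congr rfl fun z _ => e1 z, Finset.sum_comm]
  have := sum_Pn_one n
  rw [← this]
  refine Finset.sum_congr rfl fun x _ => ?_
  rw [Finset.sum_comm]

end Protocol

end Vale.Agent.P372B
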